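import Mathlib
import Crest.Prelude.Def_TwoAdicShift

/-!
# Row 113, S0150 (fibred weighted shift over the 2-adic odometer): definitions

`β j x = exp (-aa j x)`; the level `k` adds the cost `DD k` outside the window
`(-2^k - x_k, 2^(k+1) - 1 - x_k)`, `x_k = x mod 2^k`, which moves by `-1` under `x ↦ x + 1`
unless `x_k = 2^k - 1`.
-/

set_option autoImplicit false

open Crest.AnalysisR.TwoAdic MeasureTheory
attribute [local instance] Crest.AnalysisR.TwoAdic.borelTwoAdic Crest.AnalysisR.TwoAdic.borelSpace_twoAdic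

namespace Crest.Agent.R113a

/-- The values of `a` have huge gaps: `a ≤ v` on `[L, P)`, `a ≥ v'` outside. -/
def Gap (a : ℤ → ℝ) : Prop :=
  (∀ i, 0 ≤ a i) ∧ ∀ N : ℕ, ∃ (L P : ℤ) (v v' : ℝ), L ≤ -(N : ℤ) ∧ (N : ℤ) ≤ P ∧ 0 ≤ v ∧
    (∀ i, L ≤ i → i < P → a i ≤ v) ∧ (∀ i, i < L ∨ P ≤ i → v' ≤ a i) ∧
    2 * (v + N + 16 * ((P - L + 1 : ℤ) : ℝ) ^ 2) ≤ v'

/-- `T` is the weighted shift by `s` with weights `c`. -/
def IsSh (T : seqHilbert →L[ℂ] seqHilbert) (c : ℤ → ℝ) (s : ℤ) : Prop :=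
  ∀ (v : seqHilbert) (j : ℤ), T v (j + s) = (c j : ℂ) * v j

/-- `x mod 2 ^ k`. -/
noncomputable def xk (k : ℕ) (x : ℤ_[2]) : ℤ := ((PadicInt.toZModPow k x).val : ℤ)

/-- The cost of level `k`. -/
noncomputable def DD (k : ℕ) : ℝ := 10 ^ 4 * 16 ^ k

/-- The contribution of level `k`. -/
noncomputable def tm (k : ℕ) (j : ℤ) (x : ℤ_[2]) : ℝ :=
  if 2 ^ (k + 1) - 1 - xk k x ≤ j ∨ j ≤ -2 ^ k - xk k x then DD k else 0

/-- `-log β j x`. -/
noncomputable def aa (j : ℤ) (x : ℤ_[2]) : ℝ := 10 + ∑ k ∈ Finset.range j.natAbs, tm k j x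

end Crest.Agent.R113a
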