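import Crest.Agent.R113a.Seq

/-!
# S0150: fibred operators on `L²(ℤ₂; ℓ²(ℤ))`

`exists_fib`: `x ↦ T x (f x)` is a.e. strongly measurable as the limit of the finite sums of
`(f x j * c j x) • basisVec (j + s)` (`lp.hasSum_single`, `IsSh.basis`, `aestronglyMeasurable_of_tendsto_ae` along
`atTop : Filter (Finset ℤ)`), `MemLp.of_le_mul`, `LinearMap.mkContinuous`; compose with
`Lp.compMeasurePreservingₗᵢ` for `y ↦ y + -k`.
`le_norm_fib`: test on the constant function `basisVec 0`.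
-/

set_option autoImplicit false

open Crest.AnalysisR.TwoAdic MeasureTheory
attribute [local instance] Crest.AnalysisR.TwoAdic.borelTwoAdic Crest.AnalysisR.TwoAdic.borelSpace_twoAdic

namespace Crest.Agent.R113a

theorem prob_haar : IsProbabilityMeasure haarTwoAdic :=
  ⟨by rw [← TopologicalSpace.PositiveCompacts.coe_top]; exact Measure.addHaarMeasure_self⟩

theorem FibX.isHaar : haarTwoAdic.IsAddHaarMeasure := by
  unfold haarTwoAdic; infer_instance

theorem mp_add (k : ℤ_[2]) : MeasurePreserving (fun x : ℤ_[2] => x + k) haarTwoAdic haarTwoAdic := by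
  have := FibX.isHaar
  simp only [add_comm _ k]
  exact measurePreserving_add_left haarTwoAdic k

theorem haar_singleton (y : ℤ_[2]) : haarTwoAdic {y} = 0 := by
  have := FibX.isHaar
  have h1 : ‖((2 : ℕ) : ℤ_[2])‖ < 1 := by rw [PadicInt.norm_p]; norm_num
  have : (nhdsWithin (0 : ℤ_[2]) {0}ᶜ).NeBot := mem_closure_iff_nhdsWithin_neBot.1
    (mem_closure_of_tendsto (tendsto_pow_atTop_nhds_zero_of_norm_lt_one h1)
      (Filter.Eventually.of_forall fun n => pow_ne_zero n (by norm_num)))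
  exact measure_singleton y

namespace FibX

theorem aesm (T : ℤ_[2] → seqHilbert →L[ℂ] seqHilbert) (c : ℤ → ℤ_[2] → ℝ) (s : ℤ)
    (hT : ∀ x, IsSh (T x) (fun j => c j x) s) (hm : ∀ j, Measurable (c j)) (f : fibreSpace) :
    AEStronglyMeasurable (fun x => T x ((f : ℤ_[2] → seqHilbert) x)) haarTwoAdic := by
  refine aestronglyMeasurable_of_tendsto_ae (Filter.atTop : Filter (Finset ℤ))
    (f := fun J x => ∑ j ∈ J, ((f : ℤ_[2] → seqHilbert) x j * (c j x : ℂ)) • basisVec (j + s))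
    (fun J => Finset.aestronglyMeasurable_fun_sum _ fun j _ => AEStronglyMeasurable.smul_const
      (AEStronglyMeasurable.mul ?_ ?_) _) (Filter.Eventually.of_forall fun x => ?_)
  · exact (lp.lipschitzWith_one_eval (E := fun _ : ℤ => ℂ) 2 j).continuous.comp_aestronglyMeasurable
      (Lp.aestronglyMeasurable f)
  · exact (Complex.measurable_ofReal.comp (hm j)).aestronglyMeasurable
  · have h := (lp.hasSum_single (p := 2) (by norm_num) ((f : ℤ_[2] → seqHilbert) x)).mapL (T x)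
    refine Filter.Tendsto.congr (fun J => Finset.sum_congr rfl fun j _ => ?_) h
    have e : lp.single 2 j ((f : ℤ_[2] → seqHilbert) x j) =
        (f : ℤ_[2] → seqHilbert) x j • basisVec j := by
      rw [basisVec, ← lp.single_smul, smul_eq_mul, mul_one]
    beta_reduce
    rw [e, map_smul, (hT x).basis, smul_smul]

theorem shift_back {P : ℤ_[2] → Prop} (k : ℤ_[2]) (h : ∀ᵐ x ∂haarTwoAdic, P (x + k)) :
    ∀ᵐ x ∂haarTwoAdic, P x := by
  filter_upwards [(mp_add (-k)).quasiMeasurePreserving.ae h] with x hx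
  rwa [neg_add_cancel_right] at hx

end FibX

theorem exists_fib (T : ℤ_[2] → seqHilbert →L[ℂ] seqHilbert) (c : ℤ → ℤ_[2] → ℝ) (s : ℤ) (C : ℝ)
    (hT : ∀ x, IsSh (T x) (fun j => c j x) s) (hm : ∀ j, Measurable (c j))
    (hc : ∀ j x, |c j x| ≤ C) (k : ℤ_[2]) :
    ∃ F : fibreSpace →L[ℂ] fibreSpace, ∀ f : fibreSpace, ∀ᵐ x ∂haarTwoAdic,
      (F f : ℤ_[2] → seqHilbert) (x + k) = T x ((f : ℤ_[2] → seqHilbert) x) := by
  have hb : ∀ x (v : seqHilbert), ‖T x v‖ ≤ C * ‖v‖ := fun x v =>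
    (T x).le_of_opNorm_le ((hT x).norm_le fun j => hc j x) v
  have hL : ∀ f : fibreSpace, MemLp (fun x => T x ((f : ℤ_[2] → seqHilbert) x)) 2 haarTwoAdic :=
    fun f => (Lp.memLp f).of_le_mul (FibX.aesm T c s hT hm f)
      (Filter.Eventually.of_forall fun x => hb x _)
  let G : fibreSpace →ₗ[ℂ] fibreSpace :=
    { toFun := fun f => (hL f).toLp
      map_add' := fun f g => by
        rw [← MemLp.toLp_add]
        refine MemLp.toLp_congr _ _ ?_
        filter_upwards [Lp.coeFn_add f g] with x hx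
        rw [hx, Pi.add_apply, map_add, Pi.add_apply]
      map_smul' := fun a f => by
        rw [RingHom.id_apply, ← MemLp.toLp_const_smul]
        refine MemLp.toLp_congr _ _ ?_
        filter_upwards [Lp.coeFn_smul a f] with x hx
        rw [hx, Pi.smul_apply, map_smul, Pi.smul_apply] }
  have hG : ∀ f : fibreSpace, ∀ᵐ x ∂haarTwoAdic,
      (G f : ℤ_[2] → seqHilbert) x = T x ((f : ℤ_[2] → seqHilbert) x) := fun f => (hL f).coeFn_toLp
  have hn : ∀ f : fibreSpace, ‖G f‖ ≤ C * ‖f‖ := fun f => Lp.norm_le_mul_norm_of_ae_le_mul (by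
    filter_upwards [hG f] with x hx
    rw [hx]; exact hb x _)
  refine ⟨(Lp.compMeasurePreservingₗᵢ ℂ _ (mp_add (-k))).toContinuousLinearMap.comp
    (G.mkContinuous C hn), fun f => ?_⟩
  filter_upwards [(mp_add k).quasiMeasurePreserving.ae
    (Lp.coeFn_compMeasurePreserving (G f) (mp_add (-k))), hG f] with x h1 h2
  refine h1.trans ?_
  rw [Function.comp_apply, add_neg_cancel_right, h2]

theorem norm_fib_le {F : fibreSpace →L[ℂ] fibreSpace} {T : ℤ_[2] → seqHilbert →L[ℂ] seqHilbert}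
    {k : ℤ_[2]} {C : ℝ} (hT : ∀ x, ‖T x‖ ≤ C)
    (hF : ∀ f : fibreSpace, ∀ᵐ x ∂haarTwoAdic,
      (F f : ℤ_[2] → seqHilbert) (x + k) = T x ((f : ℤ_[2] → seqHilbert) x)) : ‖F‖ ≤ C := by
  refine F.opNorm_le_bound ((norm_nonneg _).trans (hT 0)) fun f => ?_
  rw [← Lp.norm_compMeasurePreserving (F f) (mp_add k)]
  refine Lp.norm_le_mul_norm_of_ae_le_mul ?_
  filter_upwards [Lp.coeFn_compMeasurePreserving (F f) (mp_add k), hF f] with x h1 h2
  rw [h1, Function.comp_apply, h2]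
  exact (T x).le_of_opNorm_le (hT x) _

theorem le_norm_fib {S : fibreSpace →L[ℂ] fibreSpace} {T : ℤ_[2] → seqHilbert →L[ℂ] seqHilbert}
    {C : ℝ} (hT : ∀ x, ‖T x (basisVec 0)‖ = C)
    (hS : ∀ f : fibreSpace, ∀ᵐ x ∂haarTwoAdic,
      (S f : ℤ_[2] → seqHilbert) x = T x ((f : ℤ_[2] → seqHilbert) x)) : C ≤ ‖S‖ := by
  have := prob_haar
  have C0 : 0 ≤ C := hT 0 ▸ norm_nonneg _
  have h1 : ‖Lp.const 2 haarTwoAdic (basisVec 0)‖ = 1 := by
    rw [Lp.norm_const _ _ _ (by norm_num), norm_basisVec]; simp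
  have h2 : ‖Lp.const 2 haarTwoAdic C‖ = C := by
    rw [Lp.norm_const _ _ _ (by norm_num), Real.norm_of_nonneg C0]; simp
  have h3 := S.le_opNorm (Lp.const 2 haarTwoAdic (basisVec 0))
  rw [h1, mul_one] at h3
  refine h2.ge.trans (le_trans (Lp.norm_le_norm_of_ae_le ?_) h3)
  filter_upwards [hS (Lp.const 2 haarTwoAdic (basisVec 0)), Lp.coeFn_const 2 haarTwoAdic C,
    Lp.coeFn_const 2 haarTwoAdic (basisVec 0)] with x a1 a2 a3
  rw [a1, a2, a3, Function.const_apply, Function.const_apply, hT, Real.norm_of_nonneg C0]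

theorem fib_pow {S : fibreSpace →L[ℂ] fibreSpace} {T : ℤ_[2] → seqHilbert →L[ℂ] seqHilbert}
    (hS : ∀ f : fibreSpace, ∀ᵐ x ∂haarTwoAdic,
      (S f : ℤ_[2] → seqHilbert) x = T x ((f : ℤ_[2] → seqHilbert) x)) (n : ℕ) (f : fibreSpace) :
    ∀ᵐ x ∂haarTwoAdic, ((S ^ n) f : ℤ_[2] → seqHilbert) x = (T x ^ n) ((f : ℤ_[2] → seqHilbert) x) := by
  induction n with
  | zero => exact Filter.Eventually.of_forall fun x => by simp
  | succ n ih =>
    filter_upwards [ih, hS ((S ^ n) f)] with x h1 h2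
    rw [pow_succ', pow_succ', ContinuousLinearMap.mul_apply, ContinuousLinearMap.mul_apply, h2, h1]

theorem fib_comm {S V : fibreSpace →L[ℂ] fibreSpace} {T U : ℤ_[2] → seqHilbert →L[ℂ] seqHilbert}
    (hS : ∀ f : fibreSpace, ∀ᵐ x ∂haarTwoAdic,
      (S f : ℤ_[2] → seqHilbert) x = T x ((f : ℤ_[2] → seqHilbert) x))
    (hV : ∀ f : fibreSpace, ∀ᵐ x ∂haarTwoAdic,
      (V f : ℤ_[2] → seqHilbert) (x + 1) = U x ((f : ℤ_[2] → seqHilbert) x))
    (h : ∀ x, x ≠ -1 → U x * T x = T (x + 1) * U x) : V * S = S * V := by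
  refine ContinuousLinearMap.ext fun f => Lp.ext (FibX.shift_back 1 ?_)
  have h0 : ∀ᵐ x ∂haarTwoAdic, x ≠ -1 := compl_mem_ae_iff.2 (haar_singleton (-1))
  filter_upwards [h0, hV (S f), hS f, hV f, (mp_add 1).quasiMeasurePreserving.ae (hS (V f))]
    with x a0 a1 a2 a3 a4
  rw [ContinuousLinearMap.mul_apply, ContinuousLinearMap.mul_apply, a1, a2, a4, a3,
    ← ContinuousLinearMap.mul_apply, h x a0, ContinuousLinearMap.mul_apply]

end Crest.Agent.R113a
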