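import Crest.Agent.R113a.Defs

/-!
# S0150: the dominant term (pure real sequences)

`side`: put `B j = A j - lam * j`; take `js` maximising `r j * exp (B j)` on the finite interval
(`Finset.exists_max_image`). For `j0 < j ≤ P`: `B j ≤ B j0 - (lam - v) ≤ B j0 - C` (increments
`≤ v - lam ≤ -C ≤ 0`). For `j < 2 L - j0 - 1`: `B L ≤ B j0 + lam (j0 - L)` (increments of `A` are `≥ 0`),
`B j ≤ B L - (v' - lam) (L - j)`, `v' - lam ≥ lam`, `L - j ≥ j0 - L + 2`, so `B j ≤ B j0 - lam ≤ B j0 - C`.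
In both cases `r j * exp (B j) ≤ exp (B j0 - C) ≤ r j0 * exp (B j0)`.

`dominant`: choose `C ≥ 0` with `exp (-C) ≤ r j0, s m0`, `N ≥ |j0|, |m0|, 2 C + 3`, and `L P v v'` from
`Gap`; `R = P - L + 1`. For `t = 0, …, 4 R²` put `lam t = v + N + 4 t ≤ v' / 2`; `side` gives `js t`;
`side` for the reflected data `r' j = s (-j)`, `A' j = -A (-j)`, `L' = -P`, `P' = -L`, `j0' = -m0` gives
`ms t ∈ [m0, 2 P - m0 + 1]` maximising `s m * exp (-A m + lam * m)` over `m ≥ L`. Both intervals have at most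
`2 R` points, so by pigeonhole (`Finset.exists_ne_map_eq_of_card_lt_of_maps_to`) there are `t < t'` with the same
pair `(js, ms)`; `n = ms - js ≥ 1`. Write `τ j = r j * s (j + n) * exp (A j - A (j + n))`.
* `j ≤ P`, `L ≤ j + n`: `τ j ≤ τ js * exp (-4 |j - js|)` (for `j > js` use `lam t` on the `r` side and
  `lam t'` on the `s` side, for `j < js` the other way round).
* otherwise `A (j + n) - A j ≥ v' n`, while (comparing with `j0, m0` at `lam = lam t`, and
  `A m0 - A j0 ≤ v (m0 - j0) ≤ lam (m0 - j0)`) `τ js ≥ exp (-2 C - lam n)`; hence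
  `τ j ≤ r j * s (j + n) * exp (-3) * τ js`.
So `τ j ≤ τ js * (exp (-4 |j - js|) + exp (-3) * r j * s (j + n))` and the sum is `< 2 τ js`.
-/

set_option autoImplicit false

open Crest.AnalysisR.TwoAdic MeasureTheory
attribute [local instance] Crest.AnalysisR.TwoAdic.borelTwoAdic Crest.AnalysisR.TwoAdic.borelSpace_twoAdic

namespace Crest.Agent.R113a

namespace UniX

theorem inc_ge (A : ℤ → ℝ) (c : ℝ) {a b : ℤ} (hab : a ≤ b)
    (h : ∀ i, a ≤ i → i < b → c ≤ A (i + 1) - A i) : c * (b - a) ≤ A b - A a := by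
  induction b, hab using Int.leInduction with
  | base => simp
  | succ b hab ih =>
    have h1 := ih fun i h1 h2 => h i h1 (by omega)
    have h2 := h b hab (by omega)
    push_cast
    linarith

theorem inc_le (A : ℤ → ℝ) (c : ℝ) {a b : ℤ} (hab : a ≤ b)
    (h : ∀ i, a ≤ i → i < b → A (i + 1) - A i ≤ c) : A b - A a ≤ c * (b - a) := by
  have := inc_ge (fun i => -A i) (-c) hab fun i h1 h2 => by linarith [h i h1 h2]
  linarith

theorem hasSum_geo (js : ℤ) : HasSum (fun j : ℤ => (1 / 4 : ℝ) ^ (j - js).natAbs) (5 / 3) := by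
  have h0 : HasSum (fun n : ℕ => (1 / 4 : ℝ) ^ n) (1 - 1 / 4)⁻¹ :=
    hasSum_geometric_of_lt_one (by norm_num) (by norm_num)
  have h1 : HasSum (fun j : ℤ => (1 / 4 : ℝ) ^ j.natAbs) ((1 - 1 / 4)⁻¹ + (1 - 1 / 4)⁻¹ * (1 / 4)) := by
    refine HasSum.of_nat_of_neg_add_one (by simpa using h0) ?_
    have := h0.mul_right (1 / 4)
    refine this.congr_fun ?_ |>.trans_eq rfl
    intro n
    have e : (-((n : ℤ) + 1)).natAbs = n + 1 := by omega
    rw [e, pow_succ]
  have h2 := (Equiv.subRight js).hasSum_iff.2 h1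
  rw [show (5 / 3 : ℝ) = (1 - 1 / 4)⁻¹ + (1 - 1 / 4)⁻¹ * (1 / 4) by norm_num]
  exact h2

/-- combining a maximiser on the left and a maximiser on the right -/
theorem comb {a a' b b' x x' y y' : ℝ} (ha : 0 ≤ a') (hb : 0 ≤ b)
    (h1 : a * Real.exp x ≤ a' * Real.exp x') (h2 : b * Real.exp y ≤ b' * Real.exp y') (z : ℝ) :
    a * b * Real.exp (x + y + z) ≤ a' * b' * Real.exp (x' + y' + z) := by
  have := mul_le_mul h1 h2 (by positivity) (by positivity)
  have := mul_le_mul_of_nonneg_right this (Real.exp_pos z).le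
  simp only [Real.exp_add]
  linarith

end UniX

theorem side (r A : ℤ → ℝ) (L P j0 : ℤ) (v v' C lam : ℝ) (hr1 : ∀ j, r j ≤ 1)
    (hA0 : ∀ i, 0 ≤ A (i + 1) - A i) (hin : ∀ i, L ≤ i → i < P → A (i + 1) - A i ≤ v)
    (hout : ∀ i, i < L → v' ≤ A (i + 1) - A i) (hL : L ≤ j0) (hP : j0 ≤ P)
    (h0 : Real.exp (-C) ≤ r j0) (hC : 0 ≤ C) (hv : 0 ≤ v) (h1 : v + C ≤ lam) (h2 : 2 * lam ≤ v') :
    ∃ js ∈ Finset.Icc (2 * L - j0 - 1) j0, ∀ j, j ≤ P →
      r j * Real.exp (A j - lam * j) ≤ r js * Real.exp (A js - lam * js) := by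
  obtain ⟨js, hjs, hmax⟩ := Finset.exists_max_image (Finset.Icc (2 * L - j0 - 1) j0)
    (fun j => r j * Real.exp (A j - lam * j)) ⟨j0, Finset.mem_Icc.2 ⟨by omega, le_rfl⟩⟩
  refine ⟨js, hjs, fun j hj => ?_⟩
  by_cases hin' : j ∈ Finset.Icc (2 * L - j0 - 1) j0
  · exact hmax j hin'
  refine le_trans ?_ (hmax j0 (Finset.mem_Icc.2 ⟨by omega, le_rfl⟩))
  have key : A j - lam * j ≤ -C + (A j0 - lam * j0) := by
    rw [Finset.mem_Icc, not_and_or, not_le, not_le] at hin'
    rcases hin' with h | h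
    · have e1 := UniX.inc_ge A 0 hL fun i _ _ => hA0 i
      have e2 := UniX.inc_ge A v' (by omega : j ≤ L) fun i _ h => hout i h
      have e3 : (j : ℝ) + j0 + 2 ≤ 2 * L := by exact_mod_cast (by omega : j + j0 + 2 ≤ 2 * L)
      have e4 : (j : ℝ) ≤ L := by exact_mod_cast (by omega : j ≤ L)
      have e5 : 2 * lam * (L - j) ≤ v' * (L - j) := mul_le_mul_of_nonneg_right h2 (by linarith)
      have e6 : lam * 2 ≤ lam * (2 * L - j - j0) := mul_le_mul_of_nonneg_left (by linarith) (by linarith)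
      nlinarith
    · have e1 := UniX.inc_le A v h.le fun i h1 h2 => hin i (by omega) (by omega)
      have e2 : (j0 : ℝ) + 1 ≤ j := by exact_mod_cast h
      have e3 : (v + C) * (j - j0) ≤ lam * (j - j0) := mul_le_mul_of_nonneg_right h1 (by linarith)
      have e4 : C * 1 ≤ C * (j - j0) := mul_le_mul_of_nonneg_left (by linarith) hC
      nlinarith
  calc r j * Real.exp (A j - lam * j) ≤ 1 * Real.exp (A j - lam * j) :=
        mul_le_mul_of_nonneg_right (hr1 j) (Real.exp_pos _).le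
    _ ≤ Real.exp (-C) * Real.exp (A j0 - lam * j0) := by
        rw [one_mul, ← Real.exp_add]; exact Real.exp_le_exp.2 key
    _ ≤ r j0 * Real.exp (A j0 - lam * j0) := mul_le_mul_of_nonneg_right h0 (Real.exp_pos _).le

theorem dominant (r s A : ℤ → ℝ) (hA : Gap fun i => A (i + 1) - A i)
    (hr : ∀ j, 0 ≤ r j ∧ r j ≤ 1) (hs : ∀ j, 0 ≤ s j ∧ s j ≤ 1)
    (hsum : ∀ n : ℕ, Summable (fun j => r j * s (j + n)) ∧ ∑' j, r j * s (j + n) ≤ 1)
    {j0 m0 : ℤ} (hlt : j0 < m0) (h1 : 0 < r j0) (h2 : 0 < s m0) :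
    ∃ (n : ℕ) (js : ℤ), ∑' j, r j * s (j + n) * Real.exp (A j - A (j + n)) <
      2 * (r js * s (js + n) * Real.exp (A js - A (js + n))) := by
  obtain ⟨C, hC, hC1, hC2⟩ : ∃ C : ℝ, 0 ≤ C ∧ Real.exp (-C) ≤ r j0 ∧ Real.exp (-C) ≤ s m0 := by
    refine ⟨|Real.log (r j0)| + |Real.log (s m0)|, by positivity, ?_, ?_⟩
    · rw [← Real.le_log_iff_exp_le h1]
      linarith [neg_abs_le (Real.log (r j0)), abs_nonneg (Real.log (s m0))]
    · rw [← Real.le_log_iff_exp_le h2]
      linarith [neg_abs_le (Real.log (s m0)), abs_nonneg (Real.log (r j0))]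
  obtain ⟨N, hN1, hN2, hN3⟩ : ∃ N : ℕ, -(N : ℤ) ≤ j0 ∧ m0 ≤ N ∧ 2 * C + 3 ≤ N := by
    refine ⟨j0.natAbs + m0.natAbs + ⌈2 * C + 3⌉₊, by omega, by omega, ?_⟩
    have := Nat.le_ceil (2 * C + 3)
    have e1 : (0 : ℝ) ≤ (j0.natAbs : ℕ) := Nat.cast_nonneg _
    have e2 : (0 : ℝ) ≤ (m0.natAbs : ℕ) := Nat.cast_nonneg _
    rw [Nat.cast_add, Nat.cast_add]
    linarith
  obtain ⟨L, P, v, v', hL, hP, hv, hin, hout, hv'⟩ := hA.2 N
  have hA0 := hA.1
  simp only at hA0 hin hout
  obtain ⟨R, hR⟩ : ∃ R : ℕ, P - L + 1 = R := ⟨(P - L + 1).toNat, by omega⟩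
  rw [hR, Int.cast_natCast] at hv'
  let lam : ℕ → ℝ := fun t => v + N + 4 * t
  have hl1 : ∀ t, v + C ≤ lam t := fun t => by
    have : (0 : ℝ) ≤ t := Nat.cast_nonneg _
    simp only [lam]; linarith
  have hl2 : ∀ t, t < 4 * R ^ 2 + 1 → 2 * lam t ≤ v' := fun t ht => by
    have : (t : ℝ) ≤ 4 * R ^ 2 := by exact_mod_cast Nat.lt_succ_iff.1 ht
    simp only [lam]; linarith
  have hex : ∀ t : ℕ, ∃ p : ℤ × ℤ, t < 4 * R ^ 2 + 1 →
      p ∈ Finset.Icc (2 * L - j0 - 1) j0 ×ˢ Finset.Icc m0 (2 * P - m0 + 1) ∧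
      (∀ j, j ≤ P → r j * Real.exp (A j - lam t * j) ≤ r p.1 * Real.exp (A p.1 - lam t * p.1)) ∧
      (∀ m, L ≤ m → s m * Real.exp (-A m + lam t * m) ≤ s p.2 * Real.exp (-A p.2 + lam t * p.2)) := by
    intro t
    by_cases ht : t < 4 * R ^ 2 + 1
    swap
    · exact ⟨(0, 0), fun h => absurd h ht⟩
    obtain ⟨js, a1, a2⟩ := side r A L P j0 v v' C (lam t) (fun j => (hr j).2) hA0 hin
      (fun i h => hout i (Or.inl h)) (by omega) (by omega) hC1 hC hv (hl1 t) (hl2 t ht)
    obtain ⟨ks, b1, b2⟩ := side (fun j => s (-j)) (fun j => -A (-j)) (-P) (-L) (-m0) v v' C (lam t)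
      (fun j => (hs _).2)
      (fun i => by
        have := hA0 (-(i + 1))
        rw [show -(i + 1) + 1 = -i by ring] at this
        linarith)
      (fun i h1 h2 => by
        have := hin (-(i + 1)) (by omega) (by omega)
        rw [show -(i + 1) + 1 = -i by ring] at this
        linarith)
      (fun i h => by
        have := hout (-(i + 1)) (Or.inr (by omega))
        rw [show -(i + 1) + 1 = -i by ring] at this
        linarith)
      (by omega) (by omega) (by simpa using hC2) hC hv (hl1 t) (hl2 t ht)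
    refine ⟨(js, -ks), fun _ => ⟨?_, a2, fun m hm => ?_⟩⟩
    · rw [Finset.mem_Icc] at b1
      exact Finset.mem_product.2 ⟨a1, Finset.mem_Icc.2 ⟨by omega, by omega⟩⟩
    · have := b2 (-m) (by omega)
      simp only [neg_neg, Int.cast_neg, mul_neg, sub_neg_eq_add] at this ⊢
      rw [← sub_eq_add_neg]
      exact this
  choose f hf using hex
  have hcard : (Finset.Icc (2 * L - j0 - 1) j0 ×ˢ Finset.Icc m0 (2 * P - m0 + 1)).card
      < (Finset.range (4 * R ^ 2 + 1)).card := by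
    rw [Finset.card_product, Finset.card_range, Int.card_Icc, Int.card_Icc]
    have e1 : (j0 + 1 - (2 * L - j0 - 1)).toNat ≤ 2 * R := by omega
    have e2 : (2 * P - m0 + 1 + 1 - m0).toNat ≤ 2 * R := by omega
    have := Nat.mul_le_mul e1 e2
    nlinarith
  obtain ⟨t, t', htt, ht', heq⟩ : ∃ t t', t < t' ∧ t' < 4 * R ^ 2 + 1 ∧ f t = f t' := by
    obtain ⟨x, hx, y, hy, hxy, he⟩ := Finset.exists_ne_map_eq_of_card_lt_of_maps_to hcard
      (f := f) fun t ht => (hf t (Finset.mem_range.1 ht)).1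
    rcases lt_or_gt_of_ne hxy with h | h
    · exact ⟨x, y, h, Finset.mem_range.1 hy, he⟩
    · exact ⟨y, x, h, Finset.mem_range.1 hx, he.symm⟩
  obtain ⟨hm, R1, S1⟩ := hf t (htt.trans ht')
  obtain ⟨-, R2, S2⟩ := hf t' ht'
  rw [← heq] at R2 S2
  have hl2' := hl2 t (htt.trans ht')
  have hl3 : lam t + 4 ≤ lam t' := by
    have : (t : ℝ) + 1 ≤ t' := by exact_mod_cast htt
    simp only [lam]; linarith
  have hl4 : v + N ≤ lam t := by
    have : (0 : ℝ) ≤ t := Nat.cast_nonneg _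
    simp only [lam]; linarith
  generalize lam t = l1 at *
  generalize lam t' = l2 at *
  generalize f t = p at *
  obtain ⟨js, ms⟩ := p
  simp only [Finset.mem_product, Finset.mem_Icc] at hm R1 S1 R2 S2
  obtain ⟨n, rfl⟩ : ∃ n : ℕ, ms = js + n := ⟨(ms - js).toNat, by omega⟩
  have hn : (1 : ℝ) ≤ n := by exact_mod_cast (by omega : 1 ≤ n)
  refine ⟨n, js, ?_⟩
  set T := r js * s (js + n) * Real.exp (A js - A (js + n)) with hT
  have hTlo : Real.exp (-(2 * C) - l1 * n) ≤ T := by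
    have e1 := UniX.comb (hr js).1 (hs m0).1 (R1 j0 (by omega)) (S1 m0 (by omega)) (-(l1 * n))
    have e2 : A js - l1 * js + (-A (js + n) + l1 * ((js + n : ℤ) : ℝ)) + -(l1 * n)
        = A js - A (js + n) := by push_cast; ring
    rw [e2] at e1
    refine le_trans ?_ e1
    have e3 := UniX.inc_le A v hlt.le fun i h1 h2 => hin i (by omega) (by omega)
    have e4 : (j0 : ℝ) ≤ m0 := by exact_mod_cast hlt.le
    have e5 : v * (m0 - j0) ≤ l1 * (m0 - j0) :=
      mul_le_mul_of_nonneg_right (by linarith [Nat.cast_nonneg (α := ℝ) N]) (by linarith)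
    calc Real.exp (-(2 * C) - l1 * n) = Real.exp (-C) * Real.exp (-C) * Real.exp (-(l1 * n)) := by
          rw [← Real.exp_add, ← Real.exp_add]; congr 1; ring
      _ ≤ _ := by
          refine mul_le_mul (mul_le_mul hC1 hC2 (Real.exp_pos _).le h1.le)
            (Real.exp_le_exp.2 (by linarith)) (Real.exp_pos _).le (by positivity)
  have hT0 : 0 < T := (Real.exp_pos _).trans_le hTlo
  have h4 : ∀ k : ℕ, Real.exp (-(4 * k)) ≤ (1 / 4 : ℝ) ^ k := fun k => by
    have e : Real.exp (-4) ≤ 1 / 4 := by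
      rw [Real.exp_neg, one_div]
      exact inv_anti₀ (by norm_num) (by linarith [Real.add_one_le_exp (4 : ℝ)])
    rw [show -(4 * (k : ℝ)) = k * (-4) by ring, Real.exp_nat_mul]
    exact pow_le_pow_left₀ (Real.exp_pos _).le e k
  have h3 : Real.exp (-3) ≤ 1 / 4 := by
    rw [Real.exp_neg, one_div]
    exact inv_anti₀ (by norm_num) (by linarith [Real.add_one_le_exp (3 : ℝ)])
  have hpt : ∀ j, r j * s (j + n) * Real.exp (A j - A (j + n)) ≤
      T * (1 / 4 : ℝ) ^ (j - js).natAbs + T / 4 * (r j * s (j + n)) := by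
    intro j
    have p0 : 0 ≤ r j * s (j + n) := mul_nonneg (hr _).1 (hs _).1
    by_cases hj : j ≤ P ∧ L ≤ j + n
    · refine le_trans ?_ (le_add_of_nonneg_right (by positivity))
      refine le_trans ?_ (mul_le_mul_of_nonneg_left (h4 _) hT0.le)
      rw [hT, mul_assoc _ (Real.exp _), ← Real.exp_add]
      rcases le_total js j with h | h
      · have e1 := UniX.comb (hr js).1 (hs (j + n)).1 (R1 j hj.1) (S2 (j + n) hj.2)
          (l1 * j - l2 * (j + n))
        have e2 : A j - l1 * j + (-A (j + n) + l2 * ((j + n : ℤ) : ℝ)) + (l1 * j - l2 * (j + n))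
            = A j - A (j + n) := by push_cast; ring
        rw [e2] at e1
        refine e1.trans (mul_le_mul_of_nonneg_left (Real.exp_le_exp.2 ?_)
          (mul_nonneg (hr _).1 (hs _).1))
        have e3 : (((j - js).natAbs : ℕ) : ℝ) = j - js := by
          rw [← Int.cast_natCast, show (((j - js).natAbs : ℕ) : ℤ) = j - js by omega]; push_cast; ring
        have e4 : (js : ℝ) ≤ j := by exact_mod_cast h
        rw [e3]
        push_cast
        nlinarith
      · have e1 := UniX.comb (hr js).1 (hs (j + n)).1 (R2 j hj.1) (S1 (j + n) hj.2)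
          (l2 * j - l1 * (j + n))
        have e2 : A j - l2 * j + (-A (j + n) + l1 * ((j + n : ℤ) : ℝ)) + (l2 * j - l1 * (j + n))
            = A j - A (j + n) := by push_cast; ring
        rw [e2] at e1
        refine e1.trans (mul_le_mul_of_nonneg_left (Real.exp_le_exp.2 ?_)
          (mul_nonneg (hr _).1 (hs _).1))
        have e3 : (((j - js).natAbs : ℕ) : ℝ) = js - j := by
          rw [← Int.cast_natCast, show (((j - js).natAbs : ℕ) : ℤ) = js - j by omega]; push_cast; ring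
        have e4 : (j : ℝ) ≤ js := by exact_mod_cast h
        rw [e3]
        push_cast
        nlinarith
    · refine le_trans ?_ (le_add_of_nonneg_left (by positivity))
      have e1 := UniX.inc_ge A v' (by omega : j ≤ j + n) fun i h1 h2 => hout i (by omega)
      push_cast at e1
      have e2 : Real.exp (A j - A (j + n)) ≤ Real.exp (-3) * Real.exp (-(2 * C) - l1 * n) := by
        rw [← Real.exp_add]
        refine Real.exp_le_exp.2 ?_
        have f1 : 2 * l1 * n ≤ v' * n := mul_le_mul_of_nonneg_right hl2' (by linarith)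
        have f2 : l1 * 1 ≤ l1 * n := mul_le_mul_of_nonneg_left hn (by linarith)
        linarith
      have e3 : Real.exp (-3) * Real.exp (-(2 * C) - l1 * n) ≤ 1 / 4 * T :=
        mul_le_mul h3 hTlo (Real.exp_pos _).le (by norm_num)
      have := mul_le_mul_of_nonneg_left (e2.trans e3) p0
      linarith
  have hs1 := (UniX.hasSum_geo js).mul_left T
  have hs2 := (hsum n).1.hasSum.mul_left (T / 4)
  have hs3 := hs1.add hs2
  have hle := Summable.tsum_le_tsum hpt
    (Summable.of_nonneg_of_le (fun j => mul_nonneg (mul_nonneg (hr _).1 (hs _).1) (Real.exp_pos _).le)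
      hpt hs3.summable) hs3.summable
  rw [hs3.tsum_eq] at hle
  have := mul_le_mul_of_nonneg_left (hsum n).2 (by positivity : 0 ≤ T / 4)
  linarith

end Crest.Agent.R113a
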