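import Crest.Agent.R113a.Seq
import Crest.Agent.R113a.Uni

/-!
# S0150: the invariant subspaces of a fibre

`supp_lt`: normalise `‖f‖ = ‖g‖ = 1` (or rescale `r = ‖f ·‖ / ‖f‖`, `s = ‖g ·‖ / ‖g‖`); `A` from `exists_prim`;
by `IsSh.pow` and `lp.hasSum_inner` the series `z j = conj (g (j + n)) * exp (A j - A (j + n)) * f j` sums to `0`,
so `‖z js‖ ≤ ∑' j ≠ js, ‖z j‖`, i.e. `2 ‖z js‖ ≤ ∑' ‖z j‖` (summable since `A` is monotone;
`r j * s (j + n) ≤ (r j ^ 2 + s (j + n) ^ 2) / 2`). With `dominant` this excludes `j < m`. If then `j = m`,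
the series for `n = 0` has the single nonzero term `j` (for `i < j`, `f i = 0`; for `i > j`, `g i = 0`).
`lattice`: `←` by `mem_tail`. `→`: if `W ≠ ⊥, ⊤` then `Wᗮ ≠ ⊥`; the union of the supports of the elements of
`W` is bounded below (`Int.exists_least_of_bdd`), with least element `h`; `W ≤ tailSpace h`, every `g ∈ Wᗮ` vanishes at
`j ≥ h`, so `tailSpace h ≤ Wᗮᗮ = W`.
-/

set_option autoImplicit false

open Crest.AnalysisR.TwoAdic MeasureTheory
attribute [local instance] Crest.AnalysisR.TwoAdic.borelTwoAdic Crest.AnalysisR.TwoAdic.borelSpace_twoAdic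

namespace Crest.Agent.R113a

variable {T : seqHilbert →L[ℂ] seqHilbert} {a : ℤ → ℝ}

namespace LatX

theorem two_norm_le {z : ℤ → ℂ} (hz : HasSum z 0) (k : ℤ) : 2 * ‖z k‖ ≤ ∑' i, ‖z i‖ := by
  classical
  have hs : Summable z := hz.summable
  have hn : Summable fun i => ‖z i‖ := hs.norm
  have h1 := hs.tsum_eq_add_tsum_ite k
  have h2 := hn.tsum_eq_add_tsum_ite k
  rw [hz.tsum_eq] at h1
  have h3 : z k = -∑' i, ite (i = k) 0 (z i) := by linear_combination -h1
  have h4 : (fun i => ‖ite (i = k) 0 (z i)‖) = fun i => ite (i = k) 0 ‖z i‖ := by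
    funext i
    split_ifs <;> simp
  have h5 : Summable fun i => ‖ite (i = k) 0 (z i)‖ := by
    refine Summable.of_nonneg_of_le (fun i => norm_nonneg _) (fun i => ?_) hn
    split_ifs <;> simp
  have h6 : ‖z k‖ ≤ ∑' i, ite (i = k) 0 ‖z i‖ := by
    rw [← h4]
    calc ‖z k‖ = ‖∑' i, ite (i = k) 0 (z i)‖ := by rw [h3, norm_neg]
      _ ≤ _ := norm_tsum_le_tsum_norm h5
  linarith

theorem hasSum_sq (f : seqHilbert) : HasSum (fun i => ‖f i‖ ^ 2) (‖f‖ ^ 2) := by
  have := lp.hasSum_norm (p := 2) (by norm_num) f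
  simpa using this

theorem hasSum_sq_div {f : seqHilbert} (hf : f ≠ 0) : HasSum (fun i => (‖f i‖ / ‖f‖) ^ 2) 1 := by
  have h0 : ‖f‖ ≠ 0 := norm_ne_zero_iff.2 hf
  have := (hasSum_sq f).div_const (‖f‖ ^ 2)
  rw [div_self (pow_ne_zero 2 h0)] at this
  simpa only [div_pow] using this

theorem ne_zero_of {f : seqHilbert} {j : ℤ} (hj : f j ≠ 0) : f ≠ 0 := by
  rintro rfl
  exact hj rfl

theorem div_mem {f : seqHilbert} (hf : f ≠ 0) (i : ℤ) : 0 ≤ ‖f i‖ / ‖f‖ ∧ ‖f i‖ / ‖f‖ ≤ 1 := by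
  have h0 : 0 < ‖f‖ := norm_pos_iff.2 hf
  exact ⟨div_nonneg (norm_nonneg _) h0.le,
    (div_le_one h0).2 (lp.norm_apply_le_norm (by norm_num) f i)⟩

theorem supp_le (ha : Gap a) (hT : IsSh T (fun j => Real.exp (-a j)) 1) (f g : seqHilbert)
    (h : ∀ n : ℕ, inner ℂ g ((T ^ n) f) = 0) (j m : ℤ) (hj : f j ≠ 0) (hm : g m ≠ 0) : m ≤ j := by
  by_contra hlt
  have hlt' : j < m := not_le.1 hlt
  obtain ⟨A, hA⟩ := exists_prim a
  have hT' : IsSh T (fun j => Real.exp (A j - A (j + 1))) 1 := by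
    have : (fun j => Real.exp (A j - A (j + 1))) = fun j => Real.exp (-a j) := by
      funext i
      rw [← hA i]
      congr 1
      ring
    rw [this]
    exact hT
  have hG : Gap fun i => A (i + 1) - A i := by
    have : (fun i => A (i + 1) - A i) = a := funext hA
    rw [this]
    exact ha
  have hf := ne_zero_of hj
  have hg := ne_zero_of hm
  have hf0 : 0 < ‖f‖ := norm_pos_iff.2 hf
  have hg0 : 0 < ‖g‖ := norm_pos_iff.2 hg
  obtain ⟨n, js, hlt⟩ := dominant (fun i => ‖f i‖ / ‖f‖) (fun i => ‖g i‖ / ‖g‖) A hG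
    (div_mem hf) (div_mem hg) (fun n => by
      have h1 := hasSum_sq_div hf
      have h2 : HasSum (fun i : ℤ => (‖g (i + n)‖ / ‖g‖) ^ 2) 1 :=
        ((Equiv.addRight (n : ℤ)).hasSum_iff (f := fun i => (‖g i‖ / ‖g‖) ^ 2)).2 (hasSum_sq_div hg)
      have h3 := (h1.add h2).div_const 2
      have h4 : ∀ i : ℤ, ‖f i‖ / ‖f‖ * (‖g (i + n)‖ / ‖g‖) ≤
          ((‖f i‖ / ‖f‖) ^ 2 + (‖g (i + n)‖ / ‖g‖) ^ 2) / 2 := fun i => by
        nlinarith [sq_nonneg (‖f i‖ / ‖f‖ - ‖g (i + n)‖ / ‖g‖)]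
      have h5 : Summable fun i : ℤ => ‖f i‖ / ‖f‖ * (‖g (i + n)‖ / ‖g‖) :=
        Summable.of_nonneg_of_le (fun i => mul_nonneg (div_mem hf _).1 (div_mem hg _).1) h4
          h3.summable
      refine ⟨h5, ?_⟩
      calc _ ≤ _ := h5.tsum_le_tsum h4 h3.summable
        _ = 1 := by rw [h3.tsum_eq]; norm_num)
    hlt' (div_pos (norm_pos_iff.2 hj) hf0) (div_pos (norm_pos_iff.2 hm) hg0)
  have hz0 := lp.hasSum_inner (𝕜 := ℂ) g ((T ^ n) f)
  rw [h n] at hz0
  have hz : HasSum (fun i : ℤ => inner ℂ (g (i + n)) ((T ^ n) f (i + n))) 0 :=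
    ((Equiv.addRight (n : ℤ)).hasSum_iff (f := fun i => inner ℂ (g i) ((T ^ n) f i))).2 hz0
  have hnz : ∀ i : ℤ, ‖inner ℂ (g (i + n)) ((T ^ n) f (i + n))‖ = ‖f‖ * ‖g‖ *
      (‖f i‖ / ‖f‖ * (‖g (i + n)‖ / ‖g‖) * Real.exp (A i - A (i + n))) := by
    intro i
    rw [hT'.pow n f i, RCLike.inner_apply, norm_mul, norm_mul, RCLike.norm_conj,
      Complex.norm_real, Real.norm_of_nonneg (Real.exp_pos _).le]
    field_simp
  have h2 := two_norm_le hz js
  simp only [hnz] at h2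
  rw [tsum_mul_left] at h2
  have h3 := mul_lt_mul_of_pos_left hlt (mul_pos hf0 hg0)
  linarith

end LatX

theorem supp_lt (ha : Gap a) (hT : IsSh T (fun j => Real.exp (-a j)) 1) (f g : seqHilbert)
    (h : ∀ n : ℕ, inner ℂ g ((T ^ n) f) = 0) (j m : ℤ) (hj : f j ≠ 0) (hm : g m ≠ 0) : m < j := by
  have key := LatX.supp_le ha hT f g h
  refine lt_of_le_of_ne (key j m hj hm) fun hmj => ?_
  subst hmj
  have hz0 := lp.hasSum_inner (𝕜 := ℂ) g ((T ^ 0) f)
  rw [h 0] at hz0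
  simp only [pow_zero, ContinuousLinearMap.one_apply] at hz0
  have h1 : HasSum (fun i => inner ℂ (g i) (f i)) (inner ℂ (g m) (f m)) := by
    refine hasSum_single m fun i hi => ?_
    rcases lt_or_gt_of_ne hi with hi | hi
    · have : f i = 0 := by
        by_contra hfi
        exact absurd (key i m hfi hm) (not_le.2 hi)
      rw [this, inner_zero_right]
    · have : g i = 0 := by
        by_contra hgi
        exact absurd (key m i hj hgi) (not_le.2 hi)
      rw [this, inner_zero_left]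
  have h2 := h1.unique hz0
  rw [RCLike.inner_apply] at h2
  rcases mul_eq_zero.1 h2 with h3 | h3
  · exact hj h3
  · exact hm (by simpa using h3)

theorem lattice (ha : Gap a) (hT : IsSh T (fun j => Real.exp (-a j)) 1)
    (W : Submodule ℂ seqHilbert) (hW : IsClosed (W : Set seqHilbert)) :
    (∀ v ∈ W, T v ∈ W) ↔ (W = ⊥ ∨ W = ⊤ ∨ ∃ h : ℤ, W = tailSpace h) := by
  constructor
  · intro hinv
    by_cases hb : W = ⊥
    · exact Or.inl hb
    by_cases ht : W = ⊤
    · exact Or.inr (Or.inl ht)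
    refine Or.inr (Or.inr ?_)
    haveI : CompleteSpace W := hW.completeSpace_coe
    have hpow : ∀ n : ℕ, ∀ v ∈ W, (T ^ n) v ∈ W := by
      intro n
      induction n with
      | zero => intro v hv; simpa using hv
      | succ n ih =>
        intro v hv
        rw [pow_succ', ContinuousLinearMap.mul_apply]
        exact hinv _ (ih v hv)
    have key : ∀ f ∈ W, ∀ g ∈ Wᗮ, ∀ j m : ℤ, f j ≠ 0 → g m ≠ 0 → m < j := by
      intro f hf g hg j m hj hm
      exact supp_lt ha hT f g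
        (fun n => Submodule.inner_left_of_mem_orthogonal (hpow n f hf) hg) j m hj hm
    have hex : ∀ f : seqHilbert, f ≠ 0 → ∃ j, f j ≠ 0 := by
      intro f hf
      by_contra hcon
      refine hf (lp.ext (funext fun j => ?_))
      by_contra hj
      exact hcon ⟨j, hj⟩
    have hO : Wᗮ ≠ ⊥ := fun h => ht (Submodule.orthogonal_eq_bot_iff.1 h)
    obtain ⟨g0, hg0, hg0'⟩ := Submodule.exists_mem_ne_zero_of_ne_bot hO
    obtain ⟨m0, hm0⟩ := hex g0 hg0'
    obtain ⟨f0, hf0, hf0'⟩ := Submodule.exists_mem_ne_zero_of_ne_bot hb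
    obtain ⟨j0, hj0⟩ := hex f0 hf0'
    obtain ⟨h, ⟨f1, hf1, hf1'⟩, hmin⟩ := Int.exists_least_of_bdd
      (P := fun j => ∃ f ∈ W, f j ≠ 0)
      ⟨m0, fun j ⟨f, hf, hj⟩ => (key f hf g0 hg0 j m0 hj hm0).le⟩ ⟨j0, f0, hf0, hj0⟩
    refine ⟨h, le_antisymm (fun v hv => mem_tail.2 fun j hj => ?_) fun v hv => ?_⟩
    · by_contra hvj
      exact absurd (hmin j ⟨v, hv, hvj⟩) (not_le.2 hj)
    · rw [← Submodule.orthogonal_orthogonal W, Submodule.mem_orthogonal]
      intro g hg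
      rw [lp.inner_eq_tsum]
      have : ∀ i, inner ℂ (g i) (v i) = 0 := by
        intro i
        by_cases hi : i < h
        · rw [mem_tail.1 hv i hi, inner_zero_right]
        · have : g i = 0 := by
            by_contra hgi
            exact hi (key f1 hf1 g hg h i hf1' hgi)
          rw [this, inner_zero_left]
      simp only [this, tsum_zero]
  · rintro (rfl | rfl | ⟨h, rfl⟩)
    · intro v hv
      rw [Submodule.mem_bot] at hv ⊢
      rw [hv, map_zero]
    · intro v _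
      exact Submodule.mem_top
    · intro v hv
      refine mem_tail.2 fun j hj => ?_
      have h1 := hT v (j - 1)
      rw [sub_add_cancel] at h1
      rw [h1, mem_tail.1 hv (j - 1) (by omega), mul_zero]

end Crest.Agent.R113a
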