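import Crest.Agent.R113a.Defs

/-!
# S0150: weighted shifts on `ℓ²(ℤ)`

`norm_le_of_coord`: `lp.norm_le_of_tsum_le` / `lp.hasSum_norm` and reindexing by `Equiv.addRight s`.
`exists_sh`: `(T v) i = c (i - s) * v (i - s)`, `LinearMap.mkContinuous`.
`mem_tail`: `→` the set `{v | v j = 0}` is a closed subspace (coordinates are continuous,
`lp.norm_apply_le_norm`); `←` `lp.hasSum_single`.
`closure_tail`: `⊆` by `mem_tail` and closedness; `⊇` the closure of the image submodule contains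
every `basisVec i`, `i ≥ h + s`.
-/

set_option autoImplicit false

open Crest.AnalysisR.TwoAdic MeasureTheory
attribute [local instance] Crest.AnalysisR.TwoAdic.borelTwoAdic Crest.AnalysisR.TwoAdic.borelSpace_twoAdic

namespace Crest.Agent.R113a

variable {T T' : seqHilbert →L[ℂ] seqHilbert} {c c' : ℤ → ℝ} {s s' : ℤ}

namespace SeqX

theorem hs (v : seqHilbert) : HasSum (fun i => ‖v i‖ ^ 2) (‖v‖ ^ 2) := by
  simpa using lp.hasSum_norm (p := 2) (by norm_num) v

theorem mem {f : ℤ → ℂ} (v : seqHilbert) {C : ℝ} (s : ℤ) (h : ∀ j, ‖f (j + s)‖ ≤ C * ‖v j‖) :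
    Memℓp f 2 := by
  refine memℓp_gen ?_
  simp only [ENNReal.toReal_ofNat, Real.rpow_ofNat]
  refine (Equiv.addRight s).summable_iff.1 (Summable.of_nonneg_of_le (fun j => sq_nonneg _)
    (fun j => ?_) ((hs v).summable.mul_left (C ^ 2)))
  rw [← mul_pow]
  exact pow_le_pow_left₀ (norm_nonneg _) (h j) 2

theorem bd {c : ℤ → ℝ} {C : ℝ} (hc : ∀ j, |c j| ≤ C) (j : ℤ) (z : ℂ) : ‖(c j : ℂ) * z‖ ≤ C * ‖z‖ := by
  rw [norm_mul, Complex.norm_real, Real.norm_eq_abs]
  exact mul_le_mul_of_nonneg_right (hc j) (norm_nonneg _)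

theorem cont (j : ℤ) : Continuous fun v : seqHilbert => v j :=
  (lp.lipschitzWith_one_eval (E := fun _ : ℤ => ℂ) 2 j).continuous

theorem mem_closed {K : Submodule ℂ seqHilbert} (hK : IsClosed (K : Set seqHilbert))
    {v : seqHilbert} (h : ∀ j, v j ≠ 0 → basisVec j ∈ K) : v ∈ K := by
  refine hK.mem_of_tendsto (lp.hasSum_single (by norm_num) v)
    (Filter.Eventually.of_forall fun S => K.sum_mem fun j _ => ?_)
  have e : (lp.single 2 j (v j) : seqHilbert) = v j • basisVec j := by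
    rw [basisVec, ← lp.single_smul, smul_eq_mul, mul_one]
  rw [e]
  by_cases hj : v j = 0
  · rw [hj, zero_smul]; exact K.zero_mem
  · exact K.smul_mem _ (h j hj)

end SeqX

open SeqX

theorem exists_prim (a : ℤ → ℝ) : ∃ A : ℤ → ℝ, ∀ i, A (i + 1) - A i = a i := by
  refine ⟨fun i => ∑ k ∈ Finset.Ico 0 i, a k - ∑ k ∈ Finset.Ico i 0, a k, fun i => ?_⟩
  rcases le_or_gt 0 i with h | h
  · have e : Finset.Ico 0 (i + 1) = insert i (Finset.Ico 0 i) := by
      ext x; simp only [Finset.mem_Ico, Finset.mem_insert]; omega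
    simp only [e, Finset.Ico_eq_empty_of_le h, Finset.Ico_eq_empty_of_le (show 0 ≤ i + 1 by omega)]
    rw [Finset.sum_insert (by simp)]
    simp
  · have e : Finset.Ico i 0 = insert i (Finset.Ico (i + 1) 0) := by
      ext x; simp only [Finset.mem_Ico, Finset.mem_insert]; omega
    simp only [e, Finset.Ico_eq_empty_of_le h.le, Finset.Ico_eq_empty_of_le (show i + 1 ≤ 0 by omega)]
    rw [Finset.sum_insert (by simp)]
    simp

theorem norm_le_of_coord {u v : seqHilbert} {C : ℝ} (hC : 0 ≤ C) (s : ℤ)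
    (h : ∀ j, ‖u (j + s)‖ ≤ C * ‖v j‖) : ‖u‖ ≤ C * ‖v‖ := by
  have h1 : HasSum (fun j => ‖u (j + s)‖ ^ 2) (‖u‖ ^ 2) :=
    (Equiv.addRight s).hasSum_iff (f := fun i => ‖u i‖ ^ 2) |>.2 (hs u)
  have h2 : HasSum (fun j => (C * ‖v j‖) ^ 2) ((C * ‖v‖) ^ 2) := by
    simp only [mul_pow]; exact (hs v).mul_left (C ^ 2)
  exact (sq_le_sq₀ (norm_nonneg _) (by positivity)).1
    (hasSum_le (fun j => pow_le_pow_left₀ (norm_nonneg _) (h j) 2) h1 h2)

theorem exists_sh (c : ℤ → ℝ) (C : ℝ) (hc : ∀ j, |c j| ≤ C) (s : ℤ) :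
    ∃ T : seqHilbert →L[ℂ] seqHilbert, IsSh T c s := by
  have hC : 0 ≤ C := (abs_nonneg _).trans (hc 0)
  have hb : ∀ (v : seqHilbert) (j : ℤ), ‖(c (j + s - s) : ℂ) * v (j + s - s)‖ ≤ C * ‖v j‖ :=
    fun v j => by rw [add_sub_cancel_right]; exact bd hc j _
  refine ⟨LinearMap.mkContinuous
    { toFun := fun v => ⟨fun i => (c (i - s) : ℂ) * v (i - s), mem v s (hb v)⟩
      map_add' := fun u v => lp.ext (funext fun i => ?_)
      map_smul' := fun a v => lp.ext (funext fun i => ?_) } C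
    fun v => norm_le_of_coord hC s (hb v), fun v j => ?_⟩
  · exact mul_add _ _ _
  · exact mul_left_comm _ _ _
  · show (c (j + s - s) : ℂ) * v (j + s - s) = _
    rw [add_sub_cancel_right]

theorem IsSh.norm_le (h : IsSh T c s) {C : ℝ} (hc : ∀ j, |c j| ≤ C) : ‖T‖ ≤ C := by
  have hC : 0 ≤ C := (abs_nonneg _).trans (hc 0)
  exact T.opNorm_le_bound hC fun v => norm_le_of_coord hC s fun j => by rw [h]; exact bd hc j _

theorem basisVec_apply (j i : ℤ) : basisVec j i = if i = j then 1 else 0 := by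
  rw [basisVec, lp.single_apply, Pi.single_apply]

theorem norm_basisVec (j : ℤ) : ‖basisVec j‖ = 1 := by
  rw [basisVec, lp.norm_single (by norm_num), norm_one]

theorem IsSh.basis (h : IsSh T c s) (j : ℤ) : T (basisVec j) = (c j : ℂ) • basisVec (j + s) := by
  refine lp.ext (funext fun i => ?_)
  obtain ⟨i, rfl⟩ : ∃ k, i = k + s := ⟨i - s, by ring⟩
  rw [h, lp.coeFn_smul, Pi.smul_apply, basisVec_apply, basisVec_apply]
  by_cases e : i = j <;> simp [e]

theorem IsSh.mul (h : IsSh T c s) (h' : IsSh T' c' s') :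
    IsSh (T' * T) (fun j => c' (j + s) * c j) (s + s') := by
  intro v j
  rw [← add_assoc, mul_apply_eq_comp, h', h, Complex.ofReal_mul, mul_assoc]

theorem IsSh.unique (h : IsSh T c s) (h' : IsSh T' c s) : T = T' := by
  refine ContinuousLinearMap.ext fun v => lp.ext (funext fun i => ?_)
  obtain ⟨i, rfl⟩ : ∃ k, i = k + s := ⟨i - s, by ring⟩
  rw [h, h']

theorem IsSh.pow {A : ℤ → ℝ} (h : IsSh T (fun j => Real.exp (A j - A (j + 1))) 1) (n : ℕ) :
    IsSh (T ^ n) (fun j => Real.exp (A j - A (j + n))) n := by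
  induction n with
  | zero => intro v j; simp
  | succ n ih =>
    have := ih.mul h
    rw [← pow_succ'] at this
    intro v j
    rw [Nat.cast_succ, this v j]
    beta_reduce
    rw [← Real.exp_add, ← add_assoc]
    congr 3
    ring

theorem mem_tail {h : ℤ} {v : seqHilbert} : v ∈ tailSpace h ↔ ∀ j, j < h → v j = 0 := by
  refine ⟨fun hv j hj => ?_, fun hv => mem_closed isClosed_closure fun j hj =>
    Submodule.le_topologicalClosure _ (Submodule.subset_span ⟨⟨j, not_lt.1 fun a => hj (hv j a)⟩, rfl⟩)⟩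
  refine closure_minimal (t := {v : seqHilbert | v j = 0}) (fun u hu => ?_)
    (isClosed_eq (cont j) continuous_const) hv
  induction hu using Submodule.span_induction with
  | mem x hx =>
    obtain ⟨i, rfl⟩ := hx
    exact (basisVec_apply _ _).trans (if_neg (by have := i.2; omega))
  | zero => rfl
  | add x y _ _ a b => exact (congrArg₂ (· + ·) a b).trans (add_zero _)
  | smul a x _ b => exact (congrArg (a * ·) b).trans (mul_zero _)

theorem SeqX.mem_closure (hT : IsSh T c s) (hc : ∀ j, c j ≠ 0) (S : Submodule ℂ seqHilbert)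
    {v : seqHilbert} (h : ∀ j, v (j + s) ≠ 0 → basisVec j ∈ S) :
    v ∈ closure (T '' (S : Set seqHilbert)) := by
  refine mem_closed (K := (S.map (T : seqHilbert →ₗ[ℂ] seqHilbert)).topologicalClosure)
    isClosed_closure fun j hj => Submodule.le_topologicalClosure _ ?_
  obtain ⟨j, rfl⟩ : ∃ i, j = i + s := ⟨j - s, by ring⟩
  refine ⟨(c j : ℂ)⁻¹ • basisVec j, S.smul_mem _ (h j hj), ?_⟩
  rw [map_smul, ContinuousLinearMap.coe_coe, hT.basis, smul_smul,
    inv_mul_cancel₀ (by exact_mod_cast hc j), one_smul]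

theorem IsSh.closure_tail (hT : IsSh T c s) (hc : ∀ j, c j ≠ 0) (h : ℤ) :
    closure (T '' (tailSpace h : Set seqHilbert)) = (tailSpace (h + s) : Set seqHilbert) := by
  refine Set.Subset.antisymm (closure_minimal ?_ isClosed_closure) fun v hv =>
    SeqX.mem_closure hT hc _ fun j hj => mem_tail.2 fun i hi => ?_
  · rintro _ ⟨v, hv, rfl⟩
    refine mem_tail.2 fun i hi => ?_
    obtain ⟨i, rfl⟩ : ∃ k, i = k + s := ⟨i - s, by ring⟩
    rw [hT, mem_tail.1 hv i (by omega), mul_zero]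
  · rw [basisVec_apply, if_neg]
    rintro rfl
    exact hj (mem_tail.1 hv _ (by omega))

theorem IsSh.closure_range (hT : IsSh T c s) (hc : ∀ j, c j ≠ 0) :
    closure (Set.range T) = Set.univ := by
  refine Set.eq_univ_of_forall fun v => ?_
  have := SeqX.mem_closure hT hc ⊤ (v := v) fun _ _ => trivial
  rwa [Submodule.top_coe, Set.image_univ] at this

end Crest.Agent.R113a
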