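import Crest.Agent.R113a.Fib

/-!
# S0150: transitivity

`ae_inner_zero`: for a measurable set `E` the function `indicator E f` lies in `W` (multiplier `indicator E 1`),
so `∫_E ⟪g x, f x⟫ = 0` (`L2.inner_def`); `Integrable.ae_eq_zero_of_forall_setIntegral_eq_zero`.
`meet`: `x ↦ x + 1` is ergodic (`ergodic_add_left_of_denseRange_nsmul` or similar, `PadicInt.denseRange_natCast`);
`F' = ⋃ k ≥ k0, (· + k) ⁻¹' F` has `(· + 1) ⁻¹' F' ⊆ F'` and positive measure, so it is conull.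
`transitive`: let `0 ≠ f ∈ W`, `0 ≠ g ∈ Wᗮ`; there are `j, m` with `E = {x | f x j ≠ 0}`, `F = {x | g x m ≠ 0}` not null.
By induction on `k`, a.e. `x` has `∀ i, f x i ≠ 0 → (V ^ k) f (x + k) (i - k) ≠ 0`. By `ae_inner_zero` for
`(S ^ n) ((V ^ k) f)`, `fib_pow` and `hsupp`, a.e. `y` has `g y m ≠ 0 → (V ^ k) f y i ≠ 0 → m < i`; transport
by `mp_add k`; for `k ≥ j - m` this makes `E ∩ (· + k) ⁻¹' F` null, contradicting `meet`.
-/

set_option autoImplicit false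

open Crest.AnalysisR.TwoAdic MeasureTheory
attribute [local instance] Crest.AnalysisR.TwoAdic.borelTwoAdic Crest.AnalysisR.TwoAdic.borelSpace_twoAdic

namespace Crest.Agent.R113a

theorem ae_inner_zero (W : Submodule ℂ fibreSpace)
    (hM : ∀ g : ℤ_[2] → ℂ, Measurable g → (∃ C : ℝ, ∀ x, ‖g x‖ ≤ C) →
      ∀ f ∈ W, ∀ f' : fibreSpace,
        (∀ᵐ x ∂haarTwoAdic, (f' : ℤ_[2] → seqHilbert) x = g x • (f : ℤ_[2] → seqHilbert) x) → f' ∈ W)
    {f g : fibreSpace} (hf : f ∈ W) (hg : g ∈ Wᗮ) :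
    ∀ᵐ x ∂haarTwoAdic, inner ℂ ((g : ℤ_[2] → seqHilbert) x) ((f : ℤ_[2] → seqHilbert) x) = 0 := by
  refine (L2.integrable_inner (𝕜 := ℂ) g f).ae_eq_zero_of_forall_setIntegral_eq_zero
    fun E hE _ => ?_
  have hm : MemLp (E.indicator (f : ℤ_[2] → seqHilbert)) 2 haarTwoAdic := (Lp.memLp f).indicator hE
  have h1 : hm.toLp _ ∈ W := hM (E.indicator 1) (measurable_const.indicator hE)
    ⟨1, fun x => by by_cases h : x ∈ E <;> simp [h]⟩ f hf _
    (hm.coeFn_toLp.mono fun x hx => by rw [hx]; by_cases h : x ∈ E <;> simp [h])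
  have h2 := Submodule.inner_left_of_mem_orthogonal h1 hg
  rw [L2.inner_def] at h2
  rw [← integral_indicator hE, ← h2]
  refine integral_congr_ae (hm.coeFn_toLp.mono fun x hx => ?_)
  simp only [hx]
  by_cases h : x ∈ E <;> simp [h]

theorem meet {E F : Set ℤ_[2]} (hF : NullMeasurableSet F haarTwoAdic) (hE0 : haarTwoAdic E ≠ 0)
    (hF0 : haarTwoAdic F ≠ 0) (k0 : ℕ) :
    ∃ k : ℕ, k0 ≤ k ∧ haarTwoAdic (E ∩ (fun x => x + (k : ℤ_[2])) ⁻¹' F) ≠ 0 := by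
  have := prob_haar
  have : haarTwoAdic.IsAddHaarMeasure := by unfold haarTwoAdic; infer_instance
  by_contra hc
  push Not at hc
  have erg : Ergodic (fun x : ℤ_[2] => 1 + x) haarTwoAdic :=
    ergodic_add_left_of_denseRange_nsmul (by simpa using PadicInt.denseRange_natCast) haarTwoAdic
  have hn : NullMeasurableSet (⋃ k : ℕ, ⋃ _ : k0 ≤ k, (fun x => x + (k : ℤ_[2])) ⁻¹' F)
      haarTwoAdic := .iUnion fun k => .iUnion fun _ =>
    hF.preimage (mp_add k).quasiMeasurePreserving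
  rcases erg.ae_empty_or_univ_of_preimage_ae_le hn (LE.le.eventuallyLE fun x hx => by
    simp only [Set.mem_preimage, Set.mem_iUnion] at hx ⊢
    obtain ⟨k, hk, hx⟩ := hx
    refine ⟨k + 1, by omega, ?_⟩
    convert hx using 1
    push_cast
    ring) with h | h
  · refine hF0 ?_
    rw [← (mp_add (k0 : ℤ_[2])).measure_preimage hF]
    refine measure_mono_null ?_ (ae_eq_empty.1 h)
    exact fun x hx => Set.mem_iUnion₂.2 ⟨k0, le_rfl, hx⟩
  · refine hE0 (measure_mono_null (t := (⋃ k : ℕ, ⋃ _ : k0 ≤ k,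
      E ∩ (fun x => x + (k : ℤ_[2])) ⁻¹' F) ∪ _) ?_ (measure_union_null
        (measure_iUnion_null fun k => measure_iUnion_null (hc k)) (ae_eq_univ.1 h)))
    intro x hx
    by_cases c : x ∈ ⋃ k : ℕ, ⋃ _ : k0 ≤ k, (fun x => x + (k : ℤ_[2])) ⁻¹' F
    · obtain ⟨k, hk, c⟩ := Set.mem_iUnion₂.1 c
      exact .inl (Set.mem_iUnion₂.2 ⟨k, hk, hx, c⟩)
    · exact .inr c

theorem transitive {S V : fibreSpace →L[ℂ] fibreSpace} {T U : ℤ_[2] → seqHilbert →L[ℂ] seqHilbert}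
    {b : ℤ → ℤ_[2] → ℝ}
    (hS : ∀ f : fibreSpace, ∀ᵐ x ∂haarTwoAdic,
      (S f : ℤ_[2] → seqHilbert) x = T x ((f : ℤ_[2] → seqHilbert) x))
    (hV : ∀ f : fibreSpace, ∀ᵐ x ∂haarTwoAdic,
      (V f : ℤ_[2] → seqHilbert) (x + 1) = U x ((f : ℤ_[2] → seqHilbert) x))
    (hsupp : ∀ x (f g : seqHilbert), (∀ n : ℕ, inner ℂ g ((T x ^ n) f) = 0) →
      ∀ j m : ℤ, f j ≠ 0 → g m ≠ 0 → m < j)
    (hU : ∀ x, IsSh (U x) (fun j => b j x) (-1)) (hb : ∀ x, x ≠ -1 → ∀ j, b j x ≠ 0)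
    (W : Submodule ℂ fibreSpace) (hW : IsClosed (W : Set fibreSpace))
    (hWS : ∀ f ∈ W, S f ∈ W) (hWV : ∀ f ∈ W, V f ∈ W)
    (hM : ∀ g : ℤ_[2] → ℂ, Measurable g → (∃ C : ℝ, ∀ x, ‖g x‖ ≤ C) →
      ∀ f ∈ W, ∀ f' : fibreSpace,
        (∀ᵐ x ∂haarTwoAdic, (f' : ℤ_[2] → seqHilbert) x = g x • (f : ℤ_[2] → seqHilbert) x) → f' ∈ W) :
    W = ⊥ ∨ W = ⊤ := by
  have := prob_haar
  by_contra hc
  push Not at hc
  have : CompleteSpace W := hW.completeSpace_coe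
  obtain ⟨f, hf, hf0⟩ := Submodule.exists_mem_ne_zero_of_ne_bot hc.1
  obtain ⟨g, hg, hg0⟩ := Submodule.exists_mem_ne_zero_of_ne_bot
    (mt (Submodule.orthogonal_eq_bot_iff (K := W)).1 hc.2)
  have nz : ∀ f : fibreSpace, f ≠ 0 →
      ∃ j, haarTwoAdic {x | (f : ℤ_[2] → seqHilbert) x j ≠ 0} ≠ 0 := fun f h => by
    by_contra c
    push Not at c
    refine h (Lp.eq_zero_iff_ae_eq_zero.2 ?_)
    filter_upwards [ae_all_iff.2 fun j => ae_iff.2 (c j)] with x hx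
    exact lp.ext (funext hx)
  obtain ⟨j, hj⟩ := nz f hf0
  obtain ⟨m, hm⟩ := nz g hg0
  have hF : NullMeasurableSet {x | (g : ℤ_[2] → seqHilbert) x m ≠ 0} haarTwoAdic := by
    have c : Continuous fun v : seqHilbert => v m :=
      (continuous_apply m).comp lp.uniformContinuous_coe.continuous
    have c1 : AEMeasurable (fun x => (g : ℤ_[2] → seqHilbert) x m) haarTwoAdic :=
      (c.comp_aestronglyMeasurable (Lp.aestronglyMeasurable g)).aemeasurable
    have c2 := c1.nullMeasurableSet_preimage (measurableSet_singleton (0 : ℂ)).compl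
    convert c2 using 1
    ext x
    simp only [Set.mem_setOf_eq, Set.mem_preimage, Set.mem_compl_iff, Set.mem_singleton_iff]
  obtain ⟨k, hk, h0⟩ := meet hF hj hm (j - m).toNat
  have mem : ∀ (A : fibreSpace →L[ℂ] fibreSpace), (∀ f ∈ W, A f ∈ W) →
      ∀ (n : ℕ), ∀ f ∈ W, (A ^ n) f ∈ W := fun A hA n f hf => by
    induction n with
    | zero => simpa using hf
    | succ n ih => rw [pow_succ']; exact hA _ ih
  have h1 : ∀ k : ℕ, ∀ᵐ x ∂haarTwoAdic, ∀ i, (f : ℤ_[2] → seqHilbert) x i ≠ 0 →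
      ((V ^ k) f : ℤ_[2] → seqHilbert) (x + k) (i - k) ≠ 0 := fun k => by
    induction k with
    | zero => simp
    | succ k ih =>
        have c : ∀ᵐ y ∂haarTwoAdic, y ≠ -1 := ae_iff.2 (by simpa using haar_singleton (-1))
        filter_upwards [ih, (mp_add k).quasiMeasurePreserving.ae (hV ((V ^ k) f)),
          (mp_add k).quasiMeasurePreserving.ae c] with x a1 a2 a3 i hi
        have e1 : x + ((k + 1 : ℕ) : ℤ_[2]) = x + k + 1 := by push_cast; ring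
        have e2 : i - ((k + 1 : ℕ) : ℤ) = i - k + -1 := by push_cast; ring
        rw [pow_succ', ContinuousLinearMap.mul_apply, e1, e2, a2, hU]
        exact mul_ne_zero (Complex.ofReal_ne_zero.2 (hb _ a3 _)) (a1 i hi)
  have h2 : ∀ᵐ y ∂haarTwoAdic, ∀ i m : ℤ, ((V ^ k) f : ℤ_[2] → seqHilbert) y i ≠ 0 →
      (g : ℤ_[2] → seqHilbert) y m ≠ 0 → m < i := by
    filter_upwards [ae_all_iff.2 fun n => fib_pow hS n ((V ^ k) f), ae_all_iff.2 fun n =>
      ae_inner_zero W hM (mem S hWS n _ (mem V hWV k f hf)) hg] with y a1 a2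
    exact hsupp y _ _ fun n => by rw [← a1, a2]
  refine h0 (measure_eq_zero_iff_ae_notMem.2 ?_)
  filter_upwards [h1 k, (mp_add k).quasiMeasurePreserving.ae h2] with x a1 a2 hx
  have := a2 _ _ (a1 j hx.1) hx.2
  omega

end Crest.Agent.R113a
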