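import Crest.Agent.R113a.Defs

/-!
# S0150: the weights `aa`

`measurable_xk`: the fibres of `toZModPow k` are closed balls (`PadicInt.ker_toZModPow`,
`PadicInt.norm_le_pow_iff_mem_span_pow`), countable range.
`tm k j x = 0` unless `2 ^ k ≤ |j|`, whence `aa_eq`.
`le_aa`: for `j ≠ 0` the level `K` with `2 ^ (K + 1) ≤ |j| + 1 < 2 ^ (K + 2)` is on and `DD K ≥ 10 * 2 ^ (K + 2)`.
`gap_aa`: `k = N + 1`, `L = -2 ^ k - xk k x + 1`, `P = 2 ^ (k + 1) - 1 - xk k x`, `v = 10 + ∑ l < k, DD l ≤ 10 + DD k / 15`,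
`v' = DD k`, `P - L + 1 ≤ 2 ^ (k + 2)`; the levels `l ≥ k` are off on `[L, P)`.
`sum_abs`: induction on `n` in steps (or: `∑ i < n, |j + i| ≥ ⌊n² / 4⌋`, pairing `i` with `n - 1 - i`).
-/

set_option autoImplicit false

open Crest.AnalysisR.TwoAdic MeasureTheory
attribute [local instance] Crest.AnalysisR.TwoAdic.borelTwoAdic Crest.AnalysisR.TwoAdic.borelSpace_twoAdic

namespace Crest.Agent.R113a

theorem xk_nonneg (k : ℕ) (x : ℤ_[2]) : 0 ≤ xk k x := by
  exact Int.natCast_nonneg _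

theorem xk_lt (k : ℕ) (x : ℤ_[2]) : xk k x < 2 ^ k := by
  unfold xk
  exact_mod_cast ZMod.val_lt (PadicInt.toZModPow k x)

theorem measurable_xk (k : ℕ) : Measurable (xk k) := by
  refine measurable_to_countable' fun c => ?_
  by_cases h : ∃ y, xk k y = c
  · obtain ⟨y, rfl⟩ := h
    have : xk k ⁻¹' {xk k y} = Metric.closedBall y ((2 : ℕ) ^ (-k : ℤ)) := by
      ext x
      rw [Set.mem_preimage, Set.mem_singleton_iff, mem_closedBall_iff_norm,
        PadicInt.norm_le_pow_iff_mem_span_pow, ← PadicInt.ker_toZModPow, RingHom.sub_mem_ker_iff,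
        xk, xk, Nat.cast_inj, (ZMod.val_injective _).eq_iff]
    rw [this]
    exact measurableSet_closedBall
  · convert MeasurableSet.empty
    exact Set.eq_empty_of_forall_notMem fun y hy => h ⟨y, hy⟩

theorem DD_pos (k : ℕ) : 0 < DD k := by
  unfold DD
  positivity

theorem aa_eq (j : ℤ) (x : ℤ_[2]) {N : ℕ} (hN : j.natAbs ≤ N) :
    aa j x = 10 + ∑ k ∈ Finset.range N, tm k j x := by
  rw [aa, Finset.sum_subset (Finset.range_mono hN) fun k _ hk => ?_]
  have h1 := xk_nonneg k x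
  have h2 := xk_lt k x
  have h3 : (k : ℤ) < 2 ^ k := by exact_mod_cast Nat.lt_two_pow_self
  rw [Finset.mem_range] at hk
  rw [tm, if_neg]
  rw [pow_succ]
  omega

theorem WtAX.on_le {k : ℕ} {j : ℤ} {x : ℤ_[2]}
    (h : 2 ^ (k + 1) - 1 - xk k x ≤ j ∨ j ≤ -2 ^ k - xk k x) : DD k ≤ aa j x := by
  rw [aa_eq j x (Nat.le_add_left _ (k + 1))]
  have h1 : tm k j x ≤ ∑ l ∈ Finset.range (k + 1 + j.natAbs), tm l j x :=
    Finset.single_le_sum (f := fun l => tm l j x) (fun l _ => by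
      unfold tm
      split_ifs
      · exact (DD_pos l).le
      · exact le_rfl) (Finset.mem_range.2 (by omega))
  rw [tm, if_pos h] at h1
  linarith

theorem WtAX.sum_DD (k : ℕ) : ∑ l ∈ Finset.range k, DD l ≤ DD k / 15 := by
  induction k with
  | zero => simpa using div_nonneg (DD_pos 0).le (by norm_num)
  | succ k ih =>
      rw [Finset.sum_range_succ]
      unfold DD at ih ⊢
      rw [pow_succ 16]
      linarith

theorem measurable_aa (j : ℤ) : Measurable (aa j) := by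
  refine measurable_const.add (Finset.measurable_sum _ fun k _ => ?_)
  exact (measurable_from_top (f := fun c : ℤ =>
    if 2 ^ (k + 1) - 1 - c ≤ j ∨ j ≤ -2 ^ k - c then DD k else 0)).comp (measurable_xk k)

theorem aa_zero (x : ℤ_[2]) : aa 0 x = 10 := by
  simp [aa]

theorem le_aa (j : ℤ) (x : ℤ_[2]) : 10 * (1 + |(j : ℝ)|) ≤ aa j x := by
  rcases eq_or_ne j 0 with rfl | hj
  · simp [aa_zero]
  obtain ⟨K, hK⟩ : ∃ K, Nat.log 2 (j.natAbs + 1) = K + 1 :=
    Nat.exists_eq_add_one.2 (Nat.log_pos (by omega) (by omega))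
  have h1 := Nat.pow_log_le_self 2 (x := j.natAbs + 1) (by omega)
  have h2 := Nat.lt_pow_succ_log_self (b := 2) (by omega) (j.natAbs + 1)
  rw [hK] at h1 h2
  have h3 : (2 : ℤ) ^ (K + 1) ≤ j.natAbs + 1 := by exact_mod_cast h1
  have h4 : ((j.natAbs : ℝ) + 1) < 2 ^ (K + 1 + 1) := by exact_mod_cast h2
  rw [Nat.cast_natAbs, Int.cast_abs] at h4
  have h5 := xk_nonneg K x
  have h6 := xk_lt K x
  refine le_trans ?_ (WtAX.on_le (k := K) (by rw [pow_succ] at h3 ⊢; omega))
  have h7 : (2 : ℝ) ^ K ≤ 16 ^ K := by gcongr; norm_num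
  have h8 : (0 : ℝ) < 2 ^ K := by positivity
  rw [pow_succ, pow_succ] at h4
  unfold DD
  linarith

theorem gap_aa (x : ℤ_[2]) : Gap fun j => aa j x := by
  refine ⟨fun i => le_trans (by positivity) (le_aa i x), fun N => ?_⟩
  obtain ⟨k, hk⟩ : ∃ k, k = N + 1 := ⟨_, rfl⟩
  have h1 := xk_nonneg k x
  have h2 := xk_lt k x
  have h3 : (k : ℤ) < 2 ^ k := by exact_mod_cast Nat.lt_two_pow_self
  have hD := DD_pos k
  refine ⟨-2 ^ k - xk k x + 1, 2 ^ (k + 1) - 1 - xk k x, 10 + DD k / 15, DD k, by omega,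
    by rw [pow_succ]; omega, by positivity, fun i a1 a2 => ?_,
    fun i hi => WtAX.on_le (by omega), ?_⟩
  · show aa i x ≤ _
    rw [aa_eq i x (Nat.le_add_left _ k), ← Finset.sum_subset
      (Finset.range_mono (Nat.le_add_right k _)) fun l _ hl => ?_]
    · refine add_le_add_right ((Finset.sum_le_sum fun l _ => ?_).trans (WtAX.sum_DD k)) _
      unfold tm
      split_ifs
      · exact le_rfl
      · exact (DD_pos l).le
    · rw [Finset.mem_range, not_lt] at hl
      rw [tm, if_neg]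
      rcases hl.eq_or_lt with rfl | hl
      · omega
      · have b1 := xk_nonneg l x
        have b2 := xk_lt l x
        have b3 : (2 : ℤ) ^ (k + 1) ≤ 2 ^ l := pow_le_pow_right₀ (by omega) hl
        rw [pow_succ] at a2 b3 ⊢
        omega
  · have e : 2 ^ (k + 1) - 1 - xk k x - (-2 ^ k - xk k x + 1) + 1 = 3 * 2 ^ k - 1 := by ring
    have b1 : (N : ℝ) ≤ 2 ^ k := by exact_mod_cast (show (N : ℤ) ≤ 2 ^ k by omega)
    have b2 : (1 : ℝ) ≤ 2 ^ k := one_le_pow₀ (by norm_num)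
    have b3 : (2 : ℝ) ^ k * 2 ^ k ≤ 16 ^ k := by
      rw [← mul_pow]; gcongr; norm_num
    rw [e]
    unfold DD
    push_cast
    nlinarith

theorem sum_abs (A : ℤ → ℝ) (hA : ∀ i : ℤ, 10 * (1 + |(i : ℝ)|) ≤ A (i + 1) - A i) (n : ℕ) (hn : 1 ≤ n)
    (j : ℤ) : A j - A (j + n) ≤ -10 * (((n + 1) ^ 2 / 4 : ℕ) : ℝ) := by
  clear hn
  induction n using Nat.twoStepInduction generalizing j with
  | zero => simp
  | one =>
      have := hA j
      have := abs_nonneg (j : ℝ)
      norm_num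
      linarith
  | more n ih _ =>
      have h1 := hA j
      have h2 := hA (j + 1 + n)
      have h3 := ih (j + 1)
      have h4 := neg_le_abs (j : ℝ)
      have h5 := le_abs_self ((j + 1 + n : ℤ) : ℝ)
      have e : (n + 2 + 1) ^ 2 / 4 = (n + 1) ^ 2 / 4 + (n + 2) := by
        rw [show (n + 2 + 1) ^ 2 = (n + 1) ^ 2 + 4 * (n + 2) by ring, Nat.add_mul_div_left _ _ (by omega)]
      rw [e, show j + ((n + 2 : ℕ) : ℤ) = j + 1 + n + 1 by push_cast; ring, Nat.cast_add]
      push_cast at h2 h5 ⊢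
      linarith

end Crest.Agent.R113a
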