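import Crest.Agent.R113a.WtA

/-!
# S0150: the weights `b` of the backward intertwiner

Put `φ k j = max 0 (min (2 ^ k) (min (j + 2 ^ (k + 1) - 2) (2 ^ (k + 1) - j))) : ℤ` and
`e k j x = if xk k x = 2 ^ k - 1 then DD k * φ k j else 0 ≥ 0`. Then
`tm k j x - tm k (j - 1) (x + 1) = e k j x - e k (j + 1) x` (`xk_succ`, `split_ifs`, `omega`).
For `x ≠ -1` only finitely many `k` have `xk k x = 2 ^ k - 1` (`xk_ev`). Take for instance
`b j x = ⨅ N, exp (-∑ k < N, e k j x)` (measurable by `Measurable.iInf`; for `x ≠ -1` the antitone sequence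
is eventually constant), and use `aa_eq` with a large common `N`.
-/

set_option autoImplicit false

open Crest.AnalysisR.TwoAdic MeasureTheory
attribute [local instance] Crest.AnalysisR.TwoAdic.borelTwoAdic Crest.AnalysisR.TwoAdic.borelSpace_twoAdic

namespace Crest.Agent.R113a

theorem xk_succ (k : ℕ) (x : ℤ_[2]) :
    xk k (x + 1) = if xk k x = 2 ^ k - 1 then 0 else xk k x + 1 := by
  have h1 : PadicInt.toZModPow k (x + 1)
      = (((PadicInt.toZModPow k x).val + 1 : ℕ) : ZMod (2 ^ k)) := by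
    rw [map_add, map_one]
    push_cast
    rw [ZMod.natCast_zmod_val]
  have h2 : (PadicInt.toZModPow k x).val < 2 ^ k := ZMod.val_lt _
  unfold xk
  rw [h1, ZMod.val_natCast]
  generalize (PadicInt.toZModPow k x).val = a at h2 ⊢
  have h3 : ((2 : ℤ) ^ k) = ((2 ^ k : ℕ) : ℤ) := by push_cast; rfl
  rw [h3]
  generalize 2 ^ k = m at h2 ⊢
  split_ifs with h
  · have : a + 1 = m := by omega
    rw [this, Nat.mod_self]
    rfl
  · rw [Nat.mod_eq_of_lt (by omega)]
    rfl

theorem xk_ev {x : ℤ_[2]} (hx : x ≠ -1) : ∃ K : ℕ, ∀ k, K ≤ k → xk k x ≠ 2 ^ k - 1 := by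
  by_contra h
  push Not at h
  refine hx (eq_neg_of_add_eq_zero_left (PadicInt.ext_of_toZModPow.1 fun n => ?_))
  obtain ⟨k, hk, e⟩ := h n
  have h1 := xk_succ k x
  rw [if_pos e] at h1
  have h2 : PadicInt.toZModPow k (x + 1) = 0 := by
    unfold xk at h1
    exact (ZMod.val_eq_zero _).1 (by exact_mod_cast h1)
  rw [← PadicInt.cast_toZModPow n k hk (x + 1), h2, map_zero, ZMod.cast_zero]

namespace WtBX

/-- the trapezoid -/
def ph (k : ℕ) (j : ℤ) : ℤ := max 0 (min (2 ^ k) (min (j + 2 ^ (k + 1) - 2) (2 ^ (k + 1) - j)))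

/-- the exponent of level `k` -/
noncomputable def ee (k : ℕ) (j : ℤ) (x : ℤ_[2]) : ℝ :=
  if xk k x = 2 ^ k - 1 then DD k * ph k j else 0

theorem ee_nonneg (k : ℕ) (j : ℤ) (x : ℤ_[2]) : 0 ≤ ee k j x := by
  unfold ee
  split_ifs
  · exact mul_nonneg (DD_pos k).le (by exact_mod_cast le_max_left _ _)
  · exact le_rfl

theorem measurable_ee (k : ℕ) (j : ℤ) : Measurable (ee k j) :=
  Measurable.ite (measurable_xk k (measurableSet_singleton _)) measurable_const measurable_const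

theorem tm_sub (k : ℕ) (j : ℤ) (x : ℤ_[2]) :
    tm k j x - tm k (j - 1) (x + 1) = ee k j x - ee k (j + 1) x := by
  have hm : (1 : ℤ) ≤ 2 ^ k := one_le_pow₀ (by norm_num)
  unfold tm ee
  rw [xk_succ]
  by_cases h : xk k x = 2 ^ k - 1
  · simp only [if_pos h]
    rw [← mul_sub, ← Int.cast_sub, h]
    unfold ph
    rw [pow_succ]
    generalize (2 : ℤ) ^ k = m at hm ⊢
    split_ifs with h1 h2 h2
    · rw [show max 0 (min m (min (j + m * 2 - 2) (m * 2 - j)))
        - max 0 (min m (min (j + 1 + m * 2 - 2) (m * 2 - (j + 1)))) = 0 by omega]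
      simp
    · rw [show max 0 (min m (min (j + m * 2 - 2) (m * 2 - j)))
        - max 0 (min m (min (j + 1 + m * 2 - 2) (m * 2 - (j + 1)))) = 1 by omega]
      simp
    · rw [show max 0 (min m (min (j + m * 2 - 2) (m * 2 - j)))
        - max 0 (min m (min (j + 1 + m * 2 - 2) (m * 2 - (j + 1)))) = -1 by omega]
      simp
    · rw [show max 0 (min m (min (j + m * 2 - 2) (m * 2 - j)))
        - max 0 (min m (min (j + 1 + m * 2 - 2) (m * 2 - (j + 1)))) = 0 by omega]
      simp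
  · simp only [if_neg h]
    split_ifs with h1 h2 h2
    · simp
    · omega
    · omega
    · simp

/-- the weights of `V` -/
noncomputable def bb (j : ℤ) (x : ℤ_[2]) : ℝ :=
  ⨅ N : ℕ, Real.exp (-∑ k ∈ Finset.range N, ee k j x)

theorem bb_le (j : ℤ) (x : ℤ_[2]) (N : ℕ) :
    bb j x ≤ Real.exp (-∑ k ∈ Finset.range N, ee k j x) :=
  ciInf_le ⟨0, by rintro _ ⟨N, rfl⟩; exact (Real.exp_pos _).le⟩ N

theorem bb_eq {x : ℤ_[2]} {K : ℕ} (hK : ∀ k, K ≤ k → xk k x ≠ 2 ^ k - 1) (j : ℤ) {N : ℕ}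
    (hN : K ≤ N) : bb j x = Real.exp (-∑ k ∈ Finset.range N, ee k j x) := by
  refine le_antisymm (bb_le j x N) (le_ciInf fun N' => Real.exp_le_exp.2 (neg_le_neg ?_))
  have h1 : ∑ k ∈ Finset.range N', ee k j x ≤ ∑ k ∈ Finset.range (max N N'), ee k j x :=
    Finset.sum_le_sum_of_subset_of_nonneg (Finset.range_subset_range.2 (le_max_right _ _))
      fun k _ _ => ee_nonneg k j x
  have h2 : ∑ k ∈ Finset.range N, ee k j x = ∑ k ∈ Finset.range (max N N'), ee k j x := by
    refine Finset.sum_subset (Finset.range_subset_range.2 (le_max_left _ _)) fun k _ hk => ?_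
    exact if_neg (hK k (by rw [Finset.mem_range] at hk; omega))
  rw [h2]
  exact h1

end WtBX

open WtBX in
theorem exists_b : ∃ b : ℤ → ℤ_[2] → ℝ, (∀ j, Measurable (b j)) ∧ (∀ j x, 0 ≤ b j x ∧ b j x ≤ 1) ∧
    ∀ x, x ≠ -1 → ∀ j, 0 < b j x ∧
      b (j + 1) x * Real.exp (-aa j x) = Real.exp (-aa (j - 1) (x + 1)) * b j x := by
  refine ⟨bb, fun j => ?_, fun j x => ⟨?_, ?_⟩, fun x hx j => ?_⟩
  · exact Measurable.iInf fun N =>
      (Finset.measurable_sum _ fun k _ => measurable_ee k j).neg.exp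
  · exact le_ciInf fun N => (Real.exp_pos _).le
  · simpa using bb_le j x 0
  · obtain ⟨K, hK⟩ := xk_ev hx
    refine ⟨by rw [bb_eq hK j le_rfl]; exact Real.exp_pos _, ?_⟩
    set N := K + j.natAbs + 1 with hN
    rw [bb_eq hK j (N := N) (by omega), bb_eq hK (j + 1) (N := N) (by omega),
      aa_eq j x (N := N) (by omega), aa_eq (j - 1) (x + 1) (N := N) (by omega),
      ← Real.exp_add, ← Real.exp_add]
    congr 1
    have := Finset.sum_congr (rfl : Finset.range N = Finset.range N) fun k _ => tm_sub k j x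
    rw [Finset.sum_sub_distrib, Finset.sum_sub_distrib] at this
    linarith

end Crest.Agent.R113a
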